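import Vale.Agent.P032.H187.Product
import Vale.Agent.P032.H989.Germ
import Vale.Agent.P032.H782.Cel

/-!
# P032: the wedge rule of two circles, cell form

`p = c₁ + cis α₁ + cis β₁ = c₂ + cis α₂ + cis β₂`.  The circle about `c₁` carries the colours of `P`
at points which accumulate at `a₁ = c₁ + cis α₁` on the side `σ₁`, the circle about `c₂` the colours of
`Q` at points which accumulate at `a₂ = c₂ + cis α₂` on the side `σ₂`.  The first point is moved first,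
the second one much less.  The point near `p` which has distance one from both is then close to the
branch `a₂ + cis (β₂ + ε s)` of `S(a₂)`, outside (`ρ > 0`) or inside (`ρ < 0`) the disc about `a₂`, and
has no colour of `P` or `Q`.
-/

open Set Filter Topology Metric

noncomputable section

namespace Vale.Agent.P032.H648

open Vale.Agent.P032.Six Vale.Agent.P032.H187 Vale.Agent.P032.H989 Vale.Agent.P032.H782

variable {k : ℕ} {U : Fin k → Set ℂ} {T : ℂ → Set (Fin k)}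

theorem cr_cis (a b : ℝ) : cr (cis a) (cis b) = Real.sin (b - a) := by
  unfold cr
  rw [cis_re, cis_im, cis_re, cis_im, Real.sin_sub]
  ring

theorem cr_neg_right (a b : ℂ) : cr a (-b) = -cr a b := by
  unfold cr
  simp only [Complex.neg_re, Complex.neg_im]
  ring

/-- the side of a moving point of `S(c)` -/
theorem side_ev {c q : ℂ} {α σ β m : ℝ} (h1 : c + cis α + cis β = q)
    (hm : 0 < m * (σ * Real.sin (β - α))) :
    ∀ᶠ t : ℝ in 𝓝[>] 0, 0 < m * (1 - dist (c + cis (α + σ * t)) q) := by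
  have hd : HasDerivAt (fun s : ℝ => -m * (((c + cis (α + σ * s)).re - q.re) ^ 2 +
      ((c + cis (α + σ * s)).im - q.im) ^ 2 - 1)) (-m * (2 * (σ * cr (cis α) (c + cis α - q)))) 0 :=
    (hasDerivAt_br c q α σ).const_mul _
  have e1 : c + cis α - q = -cis β := by rw [← h1]; ring
  have e2 : cr (cis α) (c + cis α - q) = -Real.sin (β - α) := by
    rw [e1, cr_neg_right, cr_cis]
  have h0 : ((c + cis α).re - q.re) ^ 2 + ((c + cis α).im - q.im) ^ 2 - 1 = 0 := by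
    rw [← dist_eq_one_iff, dist_eq_norm, e1, norm_neg, norm_cis]
  have h2 := pos_right hd (by simp only [mul_zero, add_zero]; rw [h0, mul_zero])
    (by rw [e2]; nlinarith)
  filter_upwards [h2] with t ht
  rw [← sq_dist] at ht
  have h4 := dist_nonneg (x := c + cis (α + σ * t)) (y := q)
  by_contra hcon
  push Not at hcon
  nlinarith

/-- the exact difference of the squared distances -/
theorem diff_sq (x c : ℂ) (α h : ℝ) :
    dist x (c + cis α) ^ 2 - dist x (c + cis (α + 2 * h)) ^ 2 =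
      4 * Real.sin h * (cr (cis α) (x - (c + cis α)) * Real.cos h -
        (1 + ip (x - (c + cis α)) (cis α)) * Real.sin h) := by
  rw [sq_dist, sq_dist]
  unfold cr ip
  simp only [Complex.add_re, Complex.add_im, Complex.sub_re, Complex.sub_im, cis_re, cis_im]
  have e1 : Real.cos (α + 2 * h) = Real.cos α * (1 - 2 * Real.sin h ^ 2) -
      Real.sin α * (2 * Real.sin h * Real.cos h) := by
    rw [Real.cos_add, Real.cos_two_mul, Real.sin_two_mul]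
    have := Real.sin_sq_add_cos_sq h
    have e : 2 * Real.cos h ^ 2 - 1 = 1 - 2 * Real.sin h ^ 2 := by linarith
    rw [e]
  have e2 : Real.sin (α + 2 * h) = Real.sin α * (1 - 2 * Real.sin h ^ 2) +
      Real.cos α * (2 * Real.sin h * Real.cos h) := by
    rw [Real.sin_add, Real.cos_two_mul, Real.sin_two_mul]
    have := Real.sin_sq_add_cos_sq h
    have e : 2 * Real.cos h ^ 2 - 1 = 1 - 2 * Real.sin h ^ 2 := by linarith
    rw [e]
  rw [e1, e2]
  have h1 := Real.sin_sq_add_cos_sq α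
  have h2 := Real.sin_sq_add_cos_sq h
  generalize Real.sin α = sa at *
  generalize Real.cos α = ca at *
  generalize Real.sin h = s at *
  generalize Real.cos h = c' at *
  have e3 : sa ^ 2 = 1 - ca ^ 2 := by linarith
  have e4 : c' ^ 2 = 1 - s ^ 2 := by linarith
  have key : ((x.re - (c.re + ca)) ^ 2 + (x.im - (c.im + sa)) ^ 2) -
      ((x.re - (c.re + (ca * (1 - 2 * s ^ 2) - sa * (2 * s * c')))) ^ 2 +
        (x.im - (c.im + (sa * (1 - 2 * s ^ 2) + ca * (2 * s * c')))) ^ 2) =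
      4 * s * ((ca * (x.im - (c.im + sa)) - sa * (x.re - (c.re + ca))) * c' -
        ((x.re - (c.re + ca)) * ca + (x.im - (c.im + sa)) * sa) * s) -
      4 * s ^ 2 * (sa ^ 2 + ca ^ 2) * (s ^ 2 + c' ^ 2) := by ring
  rw [key, h1, h2]
  ring

/-- **The wedge rule of two circles.** -/
theorem wedge2_gen (h : Mx U) {c₁ c₂ p : ℂ} {α₁ α₂ β₁ β₂ σ₁ σ₂ ε ρ : ℝ} {P Q : Set (Fin k)}
    {C : Set ℂ} (h1 : c₁ + cis α₁ + cis β₁ = p) (h2 : c₂ + cis α₂ + cis β₂ = p)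
    (h12 : 0 < σ₁ * Real.sin (β₁ - α₁) * (ε * Real.sin (β₁ - β₂)))
    (hρ : ∀ᶠ s : ℝ in 𝓝[>] 0, 0 < ρ * (σ₂ * Real.sin (β₂ + ε * s - α₂)))
    (hC : ∀ᶠ s : ℝ in 𝓝[>] 0, ∀ᶠ w in 𝓝 (c₂ + cis α₂ + cis (β₂ + ε * s)),
      0 < ρ * (dist w (c₂ + cis α₂) - 1) → w ∈ C)
    (hP : ∃ᶠ t : ℝ in 𝓝[>] 0, c₁ + cis (α₁ + σ₁ * t) ∈ Cr U c₁ P)
    (hQ : ∃ᶠ t : ℝ in 𝓝[>] 0, c₂ + cis (α₂ + σ₂ * t) ∈ Cr U c₂ Q) :
    ∃ᶠ w in 𝓝 p, w ∈ C ∧ ∀ i, i ∈ P ∨ i ∈ Q → i ∉ Pal U w := by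
  set a₁ := c₁ + cis α₁ with ha₁
  set a₂ := c₂ + cis α₂ with ha₂
  -- the common sign
  obtain ⟨m, hm1, hm2⟩ : ∃ m : ℝ, 0 < m * (σ₁ * Real.sin (β₁ - α₁)) ∧
      0 < m * (ε * Real.sin (β₁ - β₂)) := by
    rcases mul_pos_iff.1 h12 with ⟨h3, h4⟩ | ⟨h3, h4⟩
    · exact ⟨1, by linarith, by linarith⟩
    · exact ⟨-1, by linarith, by linarith⟩
  have hs1 : Real.sin (β₁ - α₁) ≠ 0 := by
    intro h3
    rw [h3] at hm1
    simp at hm1
  have hs2 : Real.sin (β₁ - β₂) ≠ 0 := by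
    intro h3
    rw [h3] at hm2
    simp at hm2
  have hi := side_ev (m := m) (σ := σ₁) h1 hm1
  have hii := side_ev (c := a₂) (q := a₁) (α := β₂) (β := β₁ + Real.pi) (m := -m) (σ := ε)
    (by
      have e : cis (β₁ + Real.pi) = -cis β₁ := by
        apply Complex.ext
        · rw [Complex.neg_re, cis_re, cis_re, Real.cos_add_pi]
        · rw [Complex.neg_im, cis_im, cis_im, Real.sin_add_pi]
      rw [e]
      linear_combination h2 - h1)
    (by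
      have e : β₁ + Real.pi - β₂ = (β₁ - β₂) + Real.pi := by ring
      rw [e, Real.sin_add_pi]
      linarith)
  rw [frequently_iff]
  intro N hN
  obtain ⟨N', hN'N, hN'o, hN'⟩ := _root_.mem_nhds_iff.1 hN
  -- nondegeneracy near `(p, a₁)`
  have ep1 : p - a₁ = cis β₁ := by rw [← h1]; ring
  have ep2 : p - a₂ = cis β₂ := by rw [← h2]; ring
  have hnd : ∀ᶠ y : ℂ × ℂ in 𝓝 (p, a₁), cr (y.1 - y.2) (y.1 - a₂) ≠ 0 ∧ y.1 ≠ c₁ ∧
      y.1 + c₁ - 2 * y.2 ≠ 0 ∧ y.1 ∈ N' := by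
    have hc1 : Continuous fun y : ℂ × ℂ => cr (y.1 - y.2) (y.1 - a₂) := by
      unfold cr
      fun_prop
    have hc2 : Continuous fun y : ℂ × ℂ => y.1 + c₁ - 2 * y.2 := by fun_prop
    refine (hc1.continuousAt.eventually (isOpen_ne.mem_nhds ?_)).and
      ((continuous_fst.continuousAt.eventually (isOpen_ne.mem_nhds ?_)).and
      ((hc2.continuousAt.eventually (isOpen_ne.mem_nhds ?_)).and
      (continuous_fst.continuousAt.eventually (hN'o.mem_nhds hN'))))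
    · show cr (p - a₁) (p - a₂) ≠ 0
      rw [ep1, ep2, cr_cis]
      intro h3
      apply hs2
      rw [← neg_sub, Real.sin_neg, h3, neg_zero]
    · show p ≠ c₁
      intro h3
      apply hs1
      rw [← cr_cis]
      have e : cis β₁ = -cis α₁ := by linear_combination h1 + h3
      rw [e, cr_neg_right]
      unfold cr
      ring
    · show p + c₁ - 2 * a₁ ≠ 0
      intro h3
      apply hs1
      rw [← cr_cis]
      have e : cis β₁ = cis α₁ := by rw [ha₁] at h3; linear_combination h1 + h3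
      rw [e]
      unfold cr
      ring
  rw [nhds_prod_eq, Filter.eventually_prod_iff] at hnd
  obtain ⟨pa, hpa, pb, hpb, hab⟩ := hnd
  have hBc : Continuous fun s : ℝ => a₂ + cis (β₂ + ε * s) :=
    continuous_const.add (continuous_cis.comp (by fun_prop))
  have hB0 : a₂ + cis (β₂ + ε * 0) = p := by rw [mul_zero, add_zero, ← h2]
  have hBt : Tendsto (fun s : ℝ => a₂ + cis (β₂ + ε * s)) (𝓝[>] (0 : ℝ)) (𝓝 p) := by
    have h3 := hBc.tendsto 0
    rw [hB0] at h3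
    exact h3.mono_left nhdsWithin_le_nhds
  obtain ⟨δ, hδ, hgood⟩ := mem_nhdsGT_iff_exists_Ioo_subset.1
    ((hBt.eventually hpa).and (hρ.and (hC.and hii)))
  have hδ0 : (0 : ℝ) < δ := hδ
  set s0 := δ / 2 with hs0
  have hs0p : 0 < s0 := by rw [hs0]; linarith
  have hs0d : s0 < δ := by rw [hs0]; linarith
  -- the first point
  have hB1 : ∀ᶠ b in 𝓝 a₁, 0 < -m * (1 - dist (a₂ + cis (β₂ + ε * s0)) b) := by
    have hc : Continuous fun b : ℂ => -m * (1 - dist (a₂ + cis (β₂ + ε * s0)) b) := by fun_prop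
    exact hc.continuousAt.eventually (Ioi_mem_nhds (hgood ⟨hs0p, hs0d⟩).2.2.2)
  have hx1t : Tendsto (fun t : ℝ => c₁ + cis (α₁ + σ₁ * t)) (𝓝[>] (0 : ℝ)) (𝓝 a₁) := by
    have h3 : Continuous fun t : ℝ => c₁ + cis (α₁ + σ₁ * t) :=
      continuous_const.add (continuous_cis.comp (by fun_prop))
    have h4 := h3.tendsto 0
    rw [mul_zero, add_zero] at h4
    exact h4.mono_left nhdsWithin_le_nhds
  obtain ⟨t₁, hb1C, ⟨hb1i, hb1p⟩, hb1s⟩ := (hP.and_eventually ((hi.and (hx1t.eventually hpb)).and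
    (hx1t.eventually hB1))).exists
  set b₁ := c₁ + cis (α₁ + σ₁ * t₁) with hb₁
  obtain ⟨s, hs, hsd⟩ : ∃ s ∈ Ioo (0 : ℝ) δ, dist (a₂ + cis (β₂ + ε * s)) b₁ = 1 := by
    have hf : Continuous fun s : ℝ => m * (dist (a₂ + cis (β₂ + ε * s)) b₁ - 1) :=
      continuous_const.mul ((hBc.dist continuous_const).sub continuous_const)
    have hf0 : m * (dist (a₂ + cis (β₂ + ε * 0)) b₁ - 1) < 0 := by
      rw [hB0, dist_comm]
      linarith
    have hf1 : 0 < m * (dist (a₂ + cis (β₂ + ε * s0)) b₁ - 1) := by linarith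
    obtain ⟨s, ⟨hs1', hs2'⟩, hs3⟩ := intermediate_value_Icc hs0p.le hf.continuousOn
      (show (0 : ℝ) ∈ Icc _ _ from ⟨hf0.le, hf1.le⟩)
    have hs3 : m * (dist (a₂ + cis (β₂ + ε * s)) b₁ - 1) = 0 := hs3
    have hmne : m ≠ 0 := by
      rintro rfl
      simp at hf1
    refine ⟨s, ⟨?_, by linarith⟩, by linarith [(mul_eq_zero.1 hs3).resolve_left hmne]⟩
    rcases hs1'.eq_or_lt with h9 | h9
    · rw [← h9] at hs3
      rw [hs3] at hf0
      exact absurd hf0 (lt_irrefl _)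
    · exact h9
  obtain ⟨hsp, hsρ, hsC, -⟩ := hgood hs
  obtain ⟨hcr, hne1, hne2, hxN⟩ := hab hsp hb1p
  set x₀ := a₂ + cis (β₂ + ε * s) with hx₀
  have hcr : cr (x₀ - b₁) (x₀ - a₂) ≠ 0 := hcr
  have hne1 : x₀ ≠ c₁ := hne1
  have hne2 : x₀ + c₁ - 2 * b₁ ≠ 0 := hne2
  have hxN : x₀ ∈ N' := hxN
  have ex2 : x₀ - a₂ = cis (β₂ + ε * s) := by rw [hx₀]; ring
  have hsin : Real.sin (β₂ + ε * s - α₂) ≠ 0 := by
    intro h3
    rw [h3] at hsρ
    simp at hsρ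
  have hσ2 : σ₂ ≠ 0 := by
    rintro rfl
    simp at hsρ
  -- the second point
  have hJ : ∀ᶠ y : ℂ × ℝ in 𝓝 (x₀, (0 : ℝ)), (y.1 ∈ N' ∧ y.1 ≠ c₁ ∧ y.1 + c₁ - 2 * b₁ ≠ 0 ∧
      (0 < ρ * (dist y.1 a₂ - 1) → y.1 ∈ C)) ∧ y.1 ≠ c₂ ∧
      y.1 + c₂ - 2 * (c₂ + cis (α₂ + 2 * (σ₂ * y.2 / 2))) ≠ 0 ∧
      0 < ρ * σ₂ * (cr (cis α₂) (y.1 - a₂) * Real.cos (σ₂ * y.2 / 2) -
        (1 + ip (y.1 - a₂) (cis α₂)) * Real.sin (σ₂ * y.2 / 2)) := by
    have hc1 : Continuous fun y : ℂ × ℝ => y.1 + c₁ - 2 * b₁ := by fun_prop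
    have hc2 : Continuous fun y : ℂ × ℝ =>
        y.1 + c₂ - 2 * (c₂ + cis (α₂ + 2 * (σ₂ * y.2 / 2))) := by
      have := continuous_cis
      fun_prop
    have hc3 : Continuous fun y : ℂ × ℝ => ρ * σ₂ * (cr (cis α₂) (y.1 - a₂) *
        Real.cos (σ₂ * y.2 / 2) - (1 + ip (y.1 - a₂) (cis α₂)) * Real.sin (σ₂ * y.2 / 2)) := by
      unfold cr ip
      fun_prop
    have hfst := (continuous_fst (X := ℂ) (Y := ℝ)).continuousAt (x := (x₀, (0 : ℝ)))
    refine ((hfst.eventually (hN'o.mem_nhds hxN)).and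
      ((hfst.eventually (isOpen_ne.mem_nhds hne1)).and
      ((hc1.continuousAt.eventually (isOpen_ne.mem_nhds ?_)).and
      (hfst.eventually hsC)))).and ((hfst.eventually (isOpen_ne.mem_nhds ?_)).and
      ((hc2.continuousAt.eventually (isOpen_ne.mem_nhds ?_)).and
      (hc3.continuousAt.eventually (Ioi_mem_nhds ?_))))
    · exact hne2
    · show x₀ ≠ c₂
      intro h3
      apply hsin
      rw [← cr_cis, ← ex2, h3, ha₂]
      have e : c₂ - (c₂ + cis α₂) = -cis α₂ := by ring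
      rw [e, cr_neg_right]
      unfold cr
      ring
    · show x₀ + c₂ - 2 * (c₂ + cis (α₂ + 2 * (σ₂ * 0 / 2))) ≠ 0
      rw [mul_zero, zero_div, mul_zero, add_zero]
      intro h3
      apply hsin
      have e : x₀ - a₂ = cis α₂ := by rw [ha₂]; linear_combination h3
      rw [← cr_cis, ← ex2, e]
      unfold cr
      ring
    · show 0 < ρ * σ₂ * (cr (cis α₂) (x₀ - a₂) * Real.cos (σ₂ * 0 / 2) -
        (1 + ip (x₀ - a₂) (cis α₂)) * Real.sin (σ₂ * 0 / 2))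
      rw [mul_zero, zero_div, Real.cos_zero, Real.sin_zero, ex2, cr_cis]
      linarith
  rw [nhds_prod_eq, Filter.eventually_prod_iff] at hJ
  obtain ⟨qa, hqa, qb, hqb, hqab⟩ := hJ
  have hxb : dist x₀ b₁ = 1 := hsd
  obtain ⟨γ, hγ⟩ := exists_cis (u := x₀ - b₁) (by rw [← dist_eq_norm]; exact hxb)
  have hγ' : b₁ + cis γ = x₀ := by rw [← hγ]; ring
  have hct : Tendsto (fun τ : ℝ => b₁ + cis τ) (𝓝 γ) (𝓝 x₀) := by
    have h3 : Continuous fun τ : ℝ => b₁ + cis τ := continuous_const.add continuous_cis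
    have h4 := h3.tendsto γ
    rwa [hγ'] at h4
  obtain ⟨η, hη, hηq⟩ := Metric.eventually_nhds_iff.1 (hct.eventually hqa)
  have hcross := crossing (c := b₁) (q₀ := a₂) (t0 := γ)
    (by rw [hγ', dist_eq_norm, ex2, norm_cis]) (by rw [hγ', ← hγ]; exact hcr) hη
  have hx2t : Tendsto (fun t : ℝ => c₂ + cis (α₂ + σ₂ * t)) (𝓝[>] (0 : ℝ)) (𝓝 a₂) := by
    have h3 : Continuous fun t : ℝ => c₂ + cis (α₂ + σ₂ * t) :=
      continuous_const.add (continuous_cis.comp (by fun_prop))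
    have h4 := h3.tendsto 0
    rw [mul_zero, add_zero] at h4
    exact h4.mono_left nhdsWithin_le_nhds
  have hsg : ∀ᶠ t : ℝ in 𝓝[>] 0, 0 < σ₂ * Real.sin (σ₂ * t / 2) := by
    have hd : HasDerivAt (fun t : ℝ => σ₂ * Real.sin (σ₂ * t / 2))
        (σ₂ * (Real.cos (σ₂ * 0 / 2) * (σ₂ * 1 / 2))) 0 :=
      ((((hasDerivAt_id (0 : ℝ)).const_mul σ₂).div_const 2).sin).const_mul σ₂
    refine pos_right hd (by simp) ?_
    rw [mul_zero, zero_div, Real.cos_zero]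
    have := mul_self_pos.2 hσ2
    nlinarith
  obtain ⟨t₂, hb2C, ⟨hb2x, hb2q⟩, hb2s⟩ := (hQ.and_eventually
    (((hx2t.eventually hcross).and (nhdsWithin_le_nhds hqb)).and hsg)).exists
  obtain ⟨τ, hτ1, hτ2⟩ := hb2x
  set x := b₁ + cis τ with hx
  have hxq : qa x := hηq (by rw [Real.dist_eq]; exact hτ1)
  obtain ⟨⟨hxN', hxc1, hxc1', hxC⟩, hxc2, hxc2', hxρ⟩ := hqab hxq hb2q
  have hxN' : x ∈ N' := hxN'
  have hxc1 : x ≠ c₁ := hxc1
  have hxc1' : x + c₁ - 2 * b₁ ≠ 0 := hxc1'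
  have hxC : 0 < ρ * (dist x a₂ - 1) → x ∈ C := hxC
  have hxc2 : x ≠ c₂ := hxc2
  have hxc2' : x + c₂ - 2 * (c₂ + cis (α₂ + 2 * (σ₂ * t₂ / 2))) ≠ 0 := hxc2'
  have hxρ : 0 < ρ * σ₂ * (cr (cis α₂) (x - a₂) * Real.cos (σ₂ * t₂ / 2) -
        (1 + ip (x - a₂) (cis α₂)) * Real.sin (σ₂ * t₂ / 2)) := hxρ
  have e22 : α₂ + 2 * (σ₂ * t₂ / 2) = α₂ + σ₂ * t₂ := by ring
  rw [e22] at hxc2'
  refine ⟨x, hN'N hxN', hxC ?_, ?_⟩
  · have h3 := diff_sq x c₂ α₂ (σ₂ * t₂ / 2)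
    rw [e22, hτ2, ← ha₂] at h3
    have h4 := mul_pos hxρ hb2s
    have h5 : 0 < ρ * (dist x a₂ ^ 2 - 1 ^ 2) * (σ₂ * σ₂) := by
      rw [h3]
      nlinarith
    have h6 : 0 < σ₂ * σ₂ := mul_self_pos.2 hσ2
    have h7 : 0 < ρ * (dist x a₂ ^ 2 - 1 ^ 2) := pos_of_mul_pos_left h5 h6.le
    have h8 := dist_nonneg (x := x) (y := a₂)
    by_contra hcon
    push Not at hcon
    nlinarith
  · rintro i (hi | hi)
    · refine Cr_line h hb1C hi ?_ hxc1 fun h3 => hxc1' (by rw [h3]; ring)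
      rw [dist_comm]
      exact dist_add_cis _ _
    · refine Cr_line h hb2C hi ?_ hxc2 fun h3 => hxc2' (by rw [h3]; ring)
      rw [dist_comm]
      exact hτ2

/-- the wedge rule with colours: a colour outside `P` and `Q` occurs in the open set `C` near `p` -/
theorem wedge2_occ (h : Irr U T) {c₁ c₂ p : ℂ} {α₁ α₂ β₁ β₂ σ₁ σ₂ ε ρ : ℝ} {P Q : Set (Fin k)}
    {C : Set ℂ} (hCo : IsOpen C) (h1 : c₁ + cis α₁ + cis β₁ = p) (h2 : c₂ + cis α₂ + cis β₂ = p)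
    (h12 : 0 < σ₁ * Real.sin (β₁ - α₁) * (ε * Real.sin (β₁ - β₂)))
    (hρ : ∀ᶠ s : ℝ in 𝓝[>] 0, 0 < ρ * (σ₂ * Real.sin (β₂ + ε * s - α₂)))
    (hC : ∀ᶠ s : ℝ in 𝓝[>] 0, ∀ᶠ w in 𝓝 (c₂ + cis α₂ + cis (β₂ + ε * s)),
      0 < ρ * (dist w (c₂ + cis α₂) - 1) → w ∈ C)
    (hP : ∃ᶠ t : ℝ in 𝓝[>] 0, c₁ + cis (α₁ + σ₁ * t) ∈ Cr U c₁ P)
    (hQ : ∃ᶠ t : ℝ in 𝓝[>] 0, c₂ + cis (α₂ + σ₂ * t) ∈ Cr U c₂ Q) :
    ∃ c, c ∉ P ∧ c ∉ Q ∧ OccIn T p C c := by
  by_contra hcon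
  push Not at hcon
  have h3 := sub_of_not_occ h hCo (P := P ∪ Q) (p := p) fun c hc =>
    hcon c (fun h4 => hc (Or.inl h4)) fun h4 => hc (Or.inr h4)
  obtain ⟨w, ⟨hw1, hw2⟩, hw3⟩ := ((wedge2_gen h.mx h1 h2 h12 hρ hC hP hQ).and_eventually h3).exists
  obtain ⟨i, hi⟩ := h.ne w
  exact hw2 i (hw3 hw1 hi) (h.sub _ hi)

/-- the sign of the move of the second point at small times -/
theorem rho_ev {ρ σ β α ε : ℝ} (h0 : 0 < ρ * (σ * Real.sin (β - α))) :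
    ∀ᶠ s : ℝ in 𝓝[>] 0, 0 < ρ * (σ * Real.sin (β + ε * s - α)) := by
  have hc : Continuous fun s : ℝ => ρ * (σ * Real.sin (β + ε * s - α)) := by fun_prop
  have h1 := hc.tendsto 0
  rw [mul_zero, add_zero] at h1
  exact (h1.eventually (Ioi_mem_nhds h0)).filter_mono nhdsWithin_le_nhds

/-- the degenerate case: the second point moves along the branch -/
theorem rho_ev' {ρ σ β α ε : ℝ} (h0 : Real.sin (β - α) = 0)
    (h1 : 0 < ρ * (σ * (ε * Real.cos (β - α)))) :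
    ∀ᶠ s : ℝ in 𝓝[>] 0, 0 < ρ * (σ * Real.sin (β + ε * s - α)) := by
  have hd : HasDerivAt (fun s : ℝ => ρ * (σ * Real.sin (β + ε * s - α)))
      (ρ * (σ * (Real.cos (β + ε * 0 - α) * (ε * 1)))) 0 :=
    (((((hasDerivAt_id (0 : ℝ)).const_mul ε).const_add β).sub_const α).sin.const_mul σ).const_mul ρ
  refine pos_right hd (by rw [mul_zero, add_zero, h0]; ring) ?_
  rw [mul_zero, add_zero]
  nlinarith

end Vale.Agent.P032.H648
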